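import Vale.Agent.P062.Win
import Mathlib.Tactic
import Mathlib.Data.Nat.Bitwise
import Mathlib.Data.Nat.Size

namespace Vale.Agent.P062

def bitCell (i : ℕ) : Cell := (((i % 64 : ℕ) : ℤ), ((i / 64 : ℕ) : ℤ))

theorem bitCell_inj {i j : ℕ} (h : bitCell i = bitCell j) : i = j := by
  simp only [bitCell, Prod.mk.injEq, Nat.cast_inj] at h
  omega

def cells (n : ℕ) : Finset Cell :=
  ((Finset.range n.size).filter (fun i => n.testBit i = true)).image bitCell

theorem mem_cells {n : ℕ} {c : Cell} : c ∈ cells n ↔ ∃ i, n.testBit i = true ∧ bitCell i = c := by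
  simp only [cells, Finset.mem_image, Finset.mem_filter, Finset.mem_range]
  constructor
  · rintro ⟨i, ⟨_, h⟩, rfl⟩; exact ⟨i, h, rfl⟩
  · rintro ⟨i, h, rfl⟩
    refine ⟨i, ⟨?_, h⟩, rfl⟩
    by_contra hcon
    push Not at hcon
    have : n < 2 ^ i := lt_of_lt_of_le (Nat.lt_size_self n) (Nat.pow_le_pow_right (by norm_num) hcon)
    rw [Nat.testBit_lt_two_pow this] at h
    exact absurd h (by simp)

theorem bitCell_mem {n i : ℕ} : bitCell i ∈ cells n ↔ n.testBit i = true := by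
  rw [mem_cells]
  constructor
  · rintro ⟨j, h, hj⟩; rwa [bitCell_inj hj] at h
  · intro h; exact ⟨i, h, rfl⟩

theorem cells_zero : cells 0 = ∅ := by
  ext c; rw [mem_cells]; simp

theorem cells_lor (a b : ℕ) : cells (Nat.lor a b) = cells a ∪ cells b := by
  ext c
  rw [Finset.mem_union, mem_cells, mem_cells, mem_cells]
  have : ∀ i, (Nat.lor a b).testBit i = (a.testBit i || b.testBit i) := fun i => Nat.testBit_or a b i
  simp only [this, Bool.or_eq_true]
  constructor
  · rintro ⟨i, h | h, rfl⟩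
    · exact Or.inl ⟨i, h, rfl⟩
    · exact Or.inr ⟨i, h, rfl⟩
  · rintro (⟨i, h, rfl⟩ | ⟨i, h, rfl⟩)
    · exact ⟨i, Or.inl h, rfl⟩
    · exact ⟨i, Or.inr h, rfl⟩

theorem cells_land (a b : ℕ) : cells (Nat.land a b) = cells a ∩ cells b := by
  ext c
  rw [Finset.mem_inter, mem_cells, mem_cells, mem_cells]
  have : ∀ i, (Nat.land a b).testBit i = (a.testBit i && b.testBit i) := fun i => Nat.testBit_and a b i
  simp only [this, Bool.and_eq_true]
  constructor
  · rintro ⟨i, ⟨h, h'⟩, rfl⟩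
    exact ⟨⟨i, h, rfl⟩, ⟨i, h', rfl⟩⟩
  · rintro ⟨⟨i, h, rfl⟩, ⟨j, h', hj⟩⟩
    rw [bitCell_inj hj] at h'
    exact ⟨i, ⟨h, h'⟩, rfl⟩

theorem cells_subset_iff (a b : ℕ) : cells a ⊆ cells b ↔ ∀ i, a.testBit i = true → b.testBit i = true := by
  constructor
  · intro h i hi
    exact bitCell_mem.1 (h (bitCell_mem.2 hi))
  · intro h c hc
    obtain ⟨i, hi, rfl⟩ := mem_cells.1 hc
    exact bitCell_mem.2 (h i hi)

def sub (a b : ℕ) : Bool := Nat.beq (Nat.land a b) a

theorem sub_subset {a b : ℕ} (h : sub a b = true) : cells a ⊆ cells b := by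
  have h' : Nat.land a b = a := Nat.eq_of_beq_eq_true h
  rw [← h', cells_land]
  exact Finset.inter_subset_right

def mask24 : ℕ := Nat.land (2 ^ 1536 - 1)
  ((2 ^ 24 - 1) * ((2 ^ 1536 - 1) / (2 ^ 64 - 1)))

def Fits (n : ℕ) : Prop := ∀ i, n.testBit i = true → i % 64 < 24

theorem cells_shift {n s : ℕ} (hn : Fits n) (hs : s % 64 ≤ 40) :
    cells (Nat.shiftLeft n s) = (cells n).image (trans (bitCell s)) := by
  have hb : ∀ j, (Nat.shiftLeft n s).testBit j = (decide (j ≥ s) && n.testBit (j - s)) :=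
    fun j => Nat.testBit_shiftLeft n
  ext c
  rw [mem_cells, Finset.mem_image]
  have key : ∀ i, n.testBit i = true → bitCell (i + s) = trans (bitCell s) (bitCell i) := by
    intro i hi
    have h1 := hn i hi
    have h2 : (i + s) % 64 = s % 64 + i % 64 := by omega
    have h3 : (i + s) / 64 = s / 64 + i / 64 := by omega
    simp only [bitCell, trans, h2, h3, Equiv.coe_fn_mk]
    push_cast
    rfl
  constructor
  · rintro ⟨j, hj, rfl⟩
    rw [hb, Bool.and_eq_true, decide_eq_true_eq] at hj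
    refine ⟨bitCell (j - s), bitCell_mem.2 hj.2, ?_⟩
    rw [← key _ hj.2, Nat.sub_add_cancel hj.1]
  · rintro ⟨d, hd, rfl⟩
    obtain ⟨i, hi, rfl⟩ := mem_cells.1 hd
    refine ⟨i + s, ?_, key i hi⟩
    rw [hb, Bool.and_eq_true, decide_eq_true_eq]
    exact ⟨Nat.le_add_left _ _, by rwa [Nat.add_sub_cancel]⟩

end Vale.Agent.P062
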