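import Vale.Agent.P062.Bits
import Mathlib.Tactic

namespace Vale.Agent.P062

inductive Tree where
  | leaf (c n : ℕ)
  | node (l r : Tree)

noncomputable def Tree.get (t : Tree) : ℕ → (ℕ → ℕ → Bool) → Bool :=
  Tree.rec (motive := fun _ => ℕ → (ℕ → ℕ → Bool) → Bool)
    (fun c n _ k => k c n)
    (fun _ _ gl gr i k =>
      bif Nat.beq (Nat.land i 1) 0 then gl (Nat.shiftRight i 1) k
        else gr (Nat.shiftRight i 1) k) t

def Tree.look : Tree → ℕ → ℕ × ℕ
  | .leaf c n, _ => (c, n)
  | .node l r, i => bif Nat.beq (Nat.land i 1) 0 then l.look (Nat.shiftRight i 1)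
      else r.look (Nat.shiftRight i 1)

theorem Tree.get_eq (t : Tree) (i : ℕ) (k : ℕ → ℕ → Bool) :
    t.get i k = k (t.look i).1 (t.look i).2 := by
  induction t generalizing i with
  | leaf c n => rfl
  | node l r ihl ihr =>
    have : (Tree.node l r).get i k = bif Nat.beq (Nat.land i 1) 0
        then l.get (Nat.shiftRight i 1) k else r.get (Nat.shiftRight i 1) k := rfl
    rw [this, Tree.look]
    cases Nat.beq (Nat.land i 1) 0
    · simp only [cond_false]; exact ihr _
    · simp only [cond_true]; exact ihl _

def Tree.depth : Tree → ℕ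
  | .leaf _ _ => 0
  | .node l r => max l.depth r.depth + 1

def Tree.All (P : ℕ → ℕ → Prop) : Tree → Prop
  | .leaf c n => P c n
  | .node l r => l.All P ∧ r.All P

theorem Tree.All.look {P : ℕ → ℕ → Prop} {t : Tree} (h : t.All P) (i : ℕ) :
    P (t.look i).1 (t.look i).2 := by
  induction t generalizing i with
  | leaf c n => exact h
  | node l r ihl ihr =>
    rw [Tree.look]
    cases Nat.beq (Nat.land i 1) 0
    · simp only [cond_false]; exact ihr h.2 _
    · simp only [cond_true]; exact ihl h.1 _

theorem Tree.all_of_look {P : ℕ → ℕ → Prop} (t : Tree) (d : ℕ) (hd : t.depth ≤ d)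
    (h : ∀ i < 2 ^ d, P (t.look i).1 (t.look i).2) : t.All P := by
  induction t generalizing d with
  | leaf c n => exact h 0 (by positivity)
  | node l r ihl ihr =>
    rw [Tree.depth] at hd
    obtain ⟨d, rfl⟩ : ∃ e, d = e + 1 := ⟨d - 1, by omega⟩
    constructor
    · apply ihl d (by omega)
      intro i hi
      have := h (2 * i) (by rw [pow_succ]; omega)
      rw [Tree.look] at this
      have h1 : Nat.beq (Nat.land (2 * i) 1) 0 = true := by
        have : Nat.land (2 * i) 1 = (2 * i) &&& 1 := rfl
        rw [this, Nat.and_one_is_mod]; simp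
      have h2 : Nat.shiftRight (2 * i) 1 = i := by
        have : Nat.shiftRight (2 * i) 1 = (2 * i) >>> 1 := rfl
        rw [this, Nat.shiftRight_one]; omega
      rwa [h1, h2] at this
    · apply ihr d (by omega)
      intro i hi
      have := h (2 * i + 1) (by rw [pow_succ]; omega)
      rw [Tree.look] at this
      have h1 : Nat.beq (Nat.land (2 * i + 1) 1) 0 = false := by
        have : Nat.land (2 * i + 1) 1 = (2 * i + 1) &&& 1 := rfl
        rw [this, Nat.and_one_is_mod]
        have : (2 * i + 1) % 2 = 1 := by omega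
        rw [this]; rfl
      have h2 : Nat.shiftRight (2 * i + 1) 1 = i := by
        have : Nat.shiftRight (2 * i + 1) 1 = (2 * i + 1) >>> 1 := rfl
        rw [this, Nat.shiftRight_one]; omega
      rwa [h1, h2] at this

inductive Just where
  | copy (o s m : ℕ)
  | kids (m : ℕ) (h : ℕ × ℕ) (l : List (ℕ × ℕ))

def pat : ℕ → ℕ
  | 0 => 442721857769029238799
  | 1 => 276701161105643274264
  | 2 => 55340232221128654878
  | 3 => 553402322211286548483
  | 4 => 231584178474632390865973275223535857998387619967825065790704055700723840581633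
  | 5 => 115792089237316195429848086744074588617446056455769168919078654292030061019138
  | 6 => 115792089237316195442402290214847950145457917669105440214728293044316188704770
  | _ => 231584178474632390859696173488149177234892112911538337838101968351838993383425

noncomputable def goKids (E t : Tree) (i M Z : ℕ) (l : List (ℕ × ℕ)) : ℕ → Bool :=
  List.rec (motive := fun _ => ℕ → Bool)
    (fun acc => sub acc M)
    (fun js _ ih acc =>
      Nat.ble (Nat.land js.2 63) 40 &&
        (bif Nat.beq (Nat.land js.1 1) 0 then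
          E.get (Nat.shiftRight js.1 1) fun c n =>
            sub (Nat.shiftLeft c js.2) M && (sub (Nat.shiftLeft n js.2) Z &&
              ih (Nat.land acc (Nat.shiftLeft n js.2)))
        else
          Nat.blt (Nat.shiftRight js.1 1) i && t.get (Nat.shiftRight js.1 1) fun c n =>
            sub (Nat.shiftLeft c js.2) M && (sub (Nat.shiftLeft n js.2) Z &&
              ih (Nat.land acc (Nat.shiftLeft n js.2)))))
    l

def maskLit : ℕ := 2192166251238828940015953036381146325948275023249693290786017186036738222996039908243069874308805114235223548214363850285823007737294449642029263767224266344962979462994518894696173140835660263632330115504177103775797456506366158743598776670024645905691615107657380674478373107859247428664517636631673501013818870000469042347546030670334340208043574096232283101015439270916258617719097165642821983167254724020196663805139378757855067847672278743515135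

def fitsOk (x : ℕ) : Bool := sub x maskLit

noncomputable def stepOk (E t : Tree) (i c n : ℕ) : Just → Bool
  | .copy o s m =>
    Nat.ble (Nat.land s 63) 40 && (sub (Nat.shiftLeft 1 m) n &&
      (Nat.beq (Nat.land c (Nat.shiftLeft 1 m)) 0 &&
        sub (Nat.shiftLeft (pat o) s) (Nat.lor c (Nat.shiftLeft 1 m))))
  | .kids m h l =>
    sub (Nat.shiftLeft 1 m) n &&
      (Nat.beq (Nat.land c (Nat.shiftLeft 1 m)) 0 &&
        goKids E t i (Nat.lor c (Nat.shiftLeft 1 m)) (Nat.lor n c) (h :: l) (Nat.lor n c))

noncomputable def checkFrom (E t : Tree) (l : List Just) : ℕ → Bool :=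
  List.rec (motive := fun _ => ℕ → Bool)
    (fun _ => true)
    (fun j _ ih i =>
      (t.get i fun c n => fitsOk (Nat.lor c n) && stepOk E t i c n j) && ih (Nat.succ i)) l


def Good (c n : ℕ) : Prop := Fits (Nat.lor c n) ∧ Win (cells c) (cells n)

theorem fits_of_sub {x : ℕ} (h : fitsOk x = true) : Fits x := by
  have h' : Nat.land x maskLit = x := Nat.eq_of_beq_eq_true h
  intro i hi
  have h2 : maskLit.testBit i = true := by
    rw [← h'] at hi
    have : (Nat.land x maskLit).testBit i = (x.testBit i && maskLit.testBit i) :=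
      Nat.testBit_and x maskLit i
    rw [this, Bool.and_eq_true] at hi
    exact hi.2
  by_cases hlt : i < 1536
  · have key : ∀ i < 1536, maskLit.testBit i = true → i % 64 < 24 := by decide +kernel
    exact key i hlt h2
  · exfalso
    have h3 : Nat.blt maskLit (Nat.shiftLeft 1 1536) = true := by decide +kernel
    have h3 : maskLit < 2 ^ 1536 := by
      have h5 := Nat.le_of_ble_eq_true h3
      rwa [show Nat.shiftLeft 1 1536 = 2 ^ 1536 from Nat.one_shiftLeft 1536] at h5
    have h4 : maskLit < 2 ^ i :=
      lt_of_lt_of_le h3 (Nat.pow_le_pow_right (by norm_num) (by omega))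
    rw [Nat.testBit_lt_two_pow h4] at h2
    exact absurd h2 (by simp)

theorem Fits.left {a b : ℕ} (h : Fits (Nat.lor a b)) : Fits a := by
  intro i hi
  apply h i
  have : (Nat.lor a b).testBit i = (a.testBit i || b.testBit i) := Nat.testBit_or a b i
  rw [this, hi]; rfl

theorem Fits.right {a b : ℕ} (h : Fits (Nat.lor a b)) : Fits b := by
  intro i hi
  apply h i
  have : (Nat.lor a b).testBit i = (a.testBit i || b.testBit i) := Nat.testBit_or a b i
  rw [this, hi]; simp

theorem goKids_cons (E t : Tree) (i M Z : ℕ) (js : ℕ × ℕ) (l : List (ℕ × ℕ)) (acc : ℕ) :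
    goKids E t i M Z (js :: l) acc =
      (Nat.ble (Nat.land js.2 63) 40 &&
        (bif Nat.beq (Nat.land js.1 1) 0 then
          E.get (Nat.shiftRight js.1 1) fun c n =>
            sub (Nat.shiftLeft c js.2) M && (sub (Nat.shiftLeft n js.2) Z &&
              goKids E t i M Z l (Nat.land acc (Nat.shiftLeft n js.2)))
        else
          Nat.blt (Nat.shiftRight js.1 1) i && t.get (Nat.shiftRight js.1 1) fun c n =>
            sub (Nat.shiftLeft c js.2) M && (sub (Nat.shiftLeft n js.2) Z &&
              goKids E t i M Z l (Nat.land acc (Nat.shiftLeft n js.2))))) := rfl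

theorem goKids_sound {E t : Tree} {i M Z : ℕ} (hE : E.All Good)
    (ht : ∀ j < i, Good (t.look j).1 (t.look j).2) :
    ∀ (l : List (ℕ × ℕ)) (acc : ℕ), goKids E t i M Z l acc = true →
      ∃ ks : List (Finset Cell × Finset Cell), ks.length = l.length ∧
        (∀ k ∈ ks, Win k.1 k.2 ∧ k.1 ⊆ cells M ∧ k.2 ⊆ cells Z) ∧
        (∀ b, b ∈ cells acc → (∀ k ∈ ks, b ∈ k.2) → b ∈ cells M) := by
  intro l
  induction l with
  | nil =>
    intro acc h
    exact ⟨[], rfl, by simp, fun b hb _ => sub_subset (a := acc) (b := M) h hb⟩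
  | cons js l ih =>
    intro acc h
    rw [goKids_cons, Bool.and_eq_true] at h
    obtain ⟨hs, h⟩ := h
    have hs' : js.2 % 64 ≤ 40 := by
      have h1 : Nat.land js.2 63 ≤ 40 := Nat.le_of_ble_eq_true hs
      have h2 : Nat.land js.2 63 = js.2 % 64 := Nat.and_two_pow_sub_one_eq_mod js.2 6
      rwa [h2] at h1
    have main : ∀ c n : ℕ, Good c n → (sub (Nat.shiftLeft c js.2) M &&
        (sub (Nat.shiftLeft n js.2) Z &&
          goKids E t i M Z l (Nat.land acc (Nat.shiftLeft n js.2)))) = true →
        ∃ ks : List (Finset Cell × Finset Cell), ks.length = (js :: l).length ∧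
        (∀ k ∈ ks, Win k.1 k.2 ∧ k.1 ⊆ cells M ∧ k.2 ⊆ cells Z) ∧
        (∀ b, b ∈ cells acc → (∀ k ∈ ks, b ∈ k.2) → b ∈ cells M) := by
      intro c n hg hh
      rw [Bool.and_eq_true, Bool.and_eq_true] at hh
      obtain ⟨hc, hn, hrec⟩ := hh
      obtain ⟨ks, hlen, hks, hall⟩ := ih _ hrec
      refine ⟨(cells (Nat.shiftLeft c js.2), cells (Nat.shiftLeft n js.2)) :: ks,
        by simp [hlen], ?_, ?_⟩
      · intro k hk
        rcases List.mem_cons.1 hk with rfl | hk
        · refine ⟨?_, sub_subset hc, sub_subset hn⟩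
          simp only
          rw [cells_shift hg.1.left hs', cells_shift hg.1.right hs']
          exact hg.2.image (sym_trans _)
        · exact hks k hk
      · intro b hb hbk
        refine hall b ?_ (fun k hk => hbk k (List.mem_cons_of_mem _ hk))
        rw [cells_land, Finset.mem_inter]
        exact ⟨hb, hbk _ List.mem_cons_self⟩
    cases hbq : Nat.beq (Nat.land js.1 1) 0
    · rw [hbq, cond_false, Bool.and_eq_true, Tree.get_eq] at h
      have hlt : Nat.shiftRight js.1 1 < i := by
        have := h.1
        simpa [Nat.blt] using this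
      exact main _ _ (ht _ hlt) h.2
    · rw [hbq, cond_true, Tree.get_eq] at h
      exact main _ _ (hE.look _) h

theorem isAllowedCopy_pat (o : ℕ) : IsAllowedCopy (cells (pat o)) := by
  match o with
  | 0 => exact ⟨(0, 0), 1, 1, Or.inl rfl, Or.inl rfl, Or.inl (by decide +kernel)⟩
  | 1 => exact ⟨(0, 1), 1, -1, Or.inl rfl, Or.inr rfl, Or.inl (by decide +kernel)⟩
  | 2 => exact ⟨(4, 0), -1, 1, Or.inr rfl, Or.inl rfl, Or.inl (by decide +kernel)⟩
  | 3 => exact ⟨(4, 1), -1, -1, Or.inr rfl, Or.inr rfl, Or.inl (by decide +kernel)⟩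
  | 4 => exact ⟨(0, 0), 1, 1, Or.inl rfl, Or.inl rfl, Or.inr (by decide +kernel)⟩
  | 5 => exact ⟨(0, 4), 1, -1, Or.inl rfl, Or.inr rfl, Or.inr (by decide +kernel)⟩
  | 6 => exact ⟨(1, 0), -1, 1, Or.inr rfl, Or.inl rfl, Or.inr (by decide +kernel)⟩
  | n + 7 => exact ⟨(1, 4), -1, -1, Or.inr rfl, Or.inr rfl, Or.inr (by
      show cells 231584178474632390859696173488149177234892112911538337838101968351838993383425 = _
      decide +kernel)⟩

theorem fits_pat (o : ℕ) : Fits (pat o) := by
  apply fits_of_sub
  match o with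
  | 0 => decide +kernel
  | 1 => decide +kernel
  | 2 => decide +kernel
  | 3 => decide +kernel
  | 4 => decide +kernel
  | 5 => decide +kernel
  | 6 => decide +kernel
  | n + 7 =>
    show fitsOk 231584178474632390859696173488149177234892112911538337838101968351838993383425 = _
    decide +kernel

theorem cells_single (m : ℕ) : cells (Nat.shiftLeft 1 m) = {bitCell m} := by
  ext c
  rw [mem_cells, Finset.mem_singleton]
  have hb : ∀ j, (Nat.shiftLeft 1 m).testBit j = decide (m = j) := by
    intro j
    have : Nat.shiftLeft 1 m = 2 ^ m := Nat.one_shiftLeft m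
    rw [this, Nat.testBit_two_pow]
  constructor
  · rintro ⟨i, hi, rfl⟩
    rw [hb, decide_eq_true_eq] at hi
    rw [hi]
  · rintro rfl
    exact ⟨m, by rw [hb]; simp, rfl⟩

theorem move_facts {c n m : ℕ} (h1 : sub (Nat.shiftLeft 1 m) n = true)
    (h2 : Nat.beq (Nat.land c (Nat.shiftLeft 1 m)) 0 = true) :
    bitCell m ∈ cells n ∧ bitCell m ∉ cells c := by
  constructor
  · exact sub_subset h1 (by rw [cells_single]; simp)
  · intro hh
    have h3 : Nat.land c (Nat.shiftLeft 1 m) = 0 := Nat.eq_of_beq_eq_true h2
    have h4 : bitCell m ∈ cells (Nat.land c (Nat.shiftLeft 1 m)) := by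
      rw [cells_land, Finset.mem_inter, cells_single]
      exact ⟨hh, by simp⟩
    rw [h3, cells_zero] at h4
    exact absurd h4 (Finset.notMem_empty _)

theorem cells_insert (c m : ℕ) :
    cells (Nat.lor c (Nat.shiftLeft 1 m)) = insert (bitCell m) (cells c) := by
  rw [cells_lor, cells_single, Finset.union_comm, Finset.insert_eq]

theorem stepOk_sound {E t : Tree} {i c n : ℕ} (hE : E.All Good)
    (ht : ∀ j < i, Good (t.look j).1 (t.look j).2) {j : Just}
    (h : stepOk E t i c n j = true) : Win (cells c) (cells n) := by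
  cases j with
  | copy o s m =>
    simp only [stepOk, Bool.and_eq_true] at h
    obtain ⟨hs, h1, h2, h3⟩ := h
    obtain ⟨hm, hC⟩ := move_facts h1 h2
    have hs' : s % 64 ≤ 40 := by
      have h1 : Nat.land s 63 ≤ 40 := Nat.le_of_ble_eq_true hs
      have h2 : Nat.land s 63 = s % 64 := Nat.and_two_pow_sub_one_eq_mod s 6
      rwa [h2] at h1
    refine Win.copy hm hC ((sym_trans (bitCell s)).fwd _ (isAllowedCopy_pat o)) ?_
    rw [← cells_shift (fits_pat o) hs', ← cells_insert]
    exact sub_subset h3
  | kids m hd l =>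
    simp only [stepOk, Bool.and_eq_true] at h
    obtain ⟨h1, h2, h3⟩ := h
    obtain ⟨hm, hC⟩ := move_facts h1 h2
    obtain ⟨ks, hlen, hks, hall⟩ := goKids_sound hE ht _ _ h3
    have hne : ks ≠ [] := by
      rintro rfl
      simp at hlen
    obtain ⟨k0, hk0⟩ := List.exists_mem_of_ne_nil ks hne
    refine Win.step hm hC ks (fun k hk => (hks k hk).1) (fun k hk => ?_) (fun k hk => ?_) ?_
    · rw [← cells_insert]; exact (hks k hk).2.1
    · rw [← cells_lor]; exact (hks k hk).2.2
    · intro b hb
      rw [← cells_insert]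
      exact hall b ((hks k0 hk0).2.2 (hb k0 hk0)) hb

theorem checkFrom_sound {E t : Tree} (hE : E.All Good) :
    ∀ (l : List Just) (i : ℕ), (∀ j < i, Good (t.look j).1 (t.look j).2) →
      checkFrom E t l i = true → ∀ j < i + l.length, Good (t.look j).1 (t.look j).2 := by
  intro l
  induction l with
  | nil => intro i hi _ j hj; exact hi j (by simpa using hj)
  | cons a l ih =>
    intro i hi h
    have h' : ((t.get i fun c n => fitsOk (Nat.lor c n) && stepOk E t i c n a) &&
        checkFrom E t l (Nat.succ i)) = true := h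
    rw [Bool.and_eq_true, Tree.get_eq, Bool.and_eq_true] at h'
    obtain ⟨⟨hf, hst⟩, hrec⟩ := h'
    have hgood : Good (t.look i).1 (t.look i).2 := ⟨fits_of_sub hf, stepOk_sound hE hi hst⟩
    have := ih (i + 1) (fun j hj => by
      rcases Nat.lt_succ_iff_lt_or_eq.1 hj with h | rfl
      · exact hi j h
      · exact hgood) hrec
    intro j hj
    exact this j (by simp at hj; omega)

theorem all_good_of_check {E t : Tree} (hE : E.All Good) (l : List Just) (d : ℕ)
    (hd : Nat.ble t.depth d = true) (hl : Nat.ble (2 ^ d) l.length = true)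
    (h : checkFrom E t l 0 = true) : t.All Good := by
  apply Tree.all_of_look t d (Nat.le_of_ble_eq_true hd)
  intro i hi
  exact checkFrom_sound hE l 0 (by simp) h i
    (by have := Nat.le_of_ble_eq_true hl; omega)

end Vale.Agent.P062
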