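import Vale.Agent.P062.Game
import Mathlib.Tactic

namespace Vale.Agent.P062

def Force : ℕ → Finset Cell → Finset Cell → Prop
  | 0, _, _ => False
  | n + 1, M, B => ∃ c, c ∉ M ∧ c ∉ B ∧
      ((∃ P, IsAllowedCopy P ∧ P ⊆ insert c M) ∨
        ∀ b, b ∉ insert c M → b ∉ B → Force n (insert c M) (insert b B))

theorem exists_free (s : Finset Cell) : ∃ c, c ∉ s := Infinite.exists_notMem_finset s

theorem Force.mono {n : ℕ} : ∀ {M B M' B' : Finset Cell}, Force n M B → M ⊆ M' → B' ⊆ B →
    Force n M' B' := by
  induction n with
  | zero => intro M B M' B' h; exact h.elim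
  | succ n ih =>
    intro M B M' B' h hM hB
    obtain ⟨c, hcM, hcB, h⟩ := h
    by_cases hc : c ∈ M'
    · obtain ⟨c', hc'⟩ := exists_free (M' ∪ B')
      rw [Finset.notMem_union] at hc'
      refine ⟨c', hc'.1, hc'.2, ?_⟩
      have hins : insert c M ⊆ M' := Finset.insert_subset hc hM
      rcases h with ⟨P, hP, hPs⟩ | h
      · exact Or.inl ⟨P, hP, (hPs.trans hins).trans (Finset.subset_insert _ _)⟩
      · right
        intro b hb hbB'
        have hbM : b ∉ insert c M := fun hh => hb (Finset.mem_insert_of_mem (hins hh))
        by_cases hbB : b ∈ B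
        · obtain ⟨b', hb'⟩ := exists_free (insert c M ∪ B)
          rw [Finset.notMem_union] at hb'
          exact ih (h b' hb'.1 hb'.2) (hins.trans (Finset.subset_insert _ _))
            ((Finset.insert_subset hbB hB).trans (Finset.subset_insert _ _))
        · exact ih (h b hbM hbB) (hins.trans (Finset.subset_insert _ _))
            (Finset.insert_subset_insert _ hB)
    · refine ⟨c, hc, fun hh => hcB (hB hh), ?_⟩
      have hins : insert c M ⊆ insert c M' := Finset.insert_subset_insert _ hM
      rcases h with ⟨P, hP, hPs⟩ | h
      · exact Or.inl ⟨P, hP, hPs.trans hins⟩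
      · right
        intro b hb hbB'
        have hbM : b ∉ insert c M := fun hh => hb (hins hh)
        by_cases hbB : b ∈ B
        · obtain ⟨b', hb'⟩ := exists_free (insert c M ∪ B)
          rw [Finset.notMem_union] at hb'
          exact ih (h b' hb'.1 hb'.2) hins
            ((Finset.insert_subset hbB hB).trans (Finset.subset_insert _ _))
        · exact ih (h b hbM hbB) hins (Finset.insert_subset_insert _ hB)

theorem Force.succ {n : ℕ} : ∀ {M B : Finset Cell}, Force n M B → Force (n + 1) M B := by
  induction n with
  | zero => intro M B h; exact h.elim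
  | succ n ih =>
    intro M B h
    obtain ⟨c, hcM, hcB, h⟩ := h
    refine ⟨c, hcM, hcB, ?_⟩
    rcases h with h | h
    · exact Or.inl h
    · exact Or.inr fun b hb hbB => ih (h b hb hbB)

theorem Force.le {n m : ℕ} (h : n ≤ m) {M B : Finset Cell} (hf : Force n M B) : Force m M B := by
  induction h with
  | refl => exact hf
  | step _ ih => exact ih.succ

open Classical in
noncomputable def mv (n : ℕ) (M B : Finset Cell) : Cell :=
  if h : ∃ c, c ∉ M ∧ c ∉ B ∧
      ((∃ P, IsAllowedCopy P ∧ P ⊆ insert c M) ∨
        ∀ b, b ∉ insert c M → b ∉ B → Force (n - 1) (insert c M) (insert b B))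
  then h.choose else (0, 0)

theorem mv_spec {n : ℕ} {M B : Finset Cell} (h : Force n M B) :
    mv n M B ∉ M ∧ mv n M B ∉ B ∧
      ((∃ P, IsAllowedCopy P ∧ P ⊆ insert (mv n M B) M) ∨
        ∀ b, b ∉ insert (mv n M B) M → b ∉ B →
          Force (n - 1) (insert (mv n M B) M) (insert b B)) := by
  cases n with
  | zero => exact h.elim
  | succ n =>
    have h' : ∃ c, c ∉ M ∧ c ∉ B ∧
      ((∃ P, IsAllowedCopy P ∧ P ⊆ insert c M) ∨
        ∀ b, b ∉ insert c M → b ∉ B → Force (n + 1 - 1) (insert c M) (insert b B)) := h
    have := h'.choose_spec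
    unfold mv
    rw [dif_pos h']
    exact this

noncomputable def posR (N : ℕ) : List Cell → Finset Cell × Finset Cell
  | [] => (∅, ∅)
  | b :: h => (insert (mv (N - h.length) (posR N h).1 (posR N h).2) (posR N h).1,
      insert b (posR N h).2)

noncomputable def strat (N : ℕ) (h : List Cell) : Cell :=
  mv (N - h.length) (posR N h.reverse).1 (posR N h.reverse).2

theorem history_length (b : ℕ → Cell) (n : ℕ) : (history b n).length = n := by
  simp [history]

theorem history_succ_reverse (b : ℕ → Cell) (n : ℕ) :
    (history b (n + 1)).reverse = b n :: (history b n).reverse := by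
  simp [history, List.range_succ]

theorem posR_fst (N : ℕ) (b : ℕ → Cell) (n : ℕ) (c : Cell) :
    c ∈ (posR N (history b n).reverse).1 ↔ ∃ i < n, makerMove (strat N) b i = c := by
  induction n with
  | zero => simp [history, posR]
  | succ n ih =>
    rw [history_succ_reverse, posR]
    simp only [Finset.mem_insert, ih, List.length_reverse, history_length]
    constructor
    · rintro (rfl | ⟨i, hi, rfl⟩)
      · exact ⟨n, Nat.lt_succ_self n, by simp [makerMove, strat, history_length]⟩
      · exact ⟨i, Nat.lt_succ_of_lt hi, rfl⟩
    · rintro ⟨i, hi, rfl⟩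
      rcases Nat.lt_succ_iff_lt_or_eq.1 hi with h | rfl
      · exact Or.inr ⟨i, h, rfl⟩
      · left; simp [makerMove, strat, history_length]

theorem posR_snd (N : ℕ) (b : ℕ → Cell) (n : ℕ) (c : Cell) :
    c ∈ (posR N (history b n).reverse).2 ↔ ∃ i < n, b i = c := by
  induction n with
  | zero => simp [history, posR]
  | succ n ih =>
    rw [history_succ_reverse, posR]
    simp only [Finset.mem_insert, ih]
    constructor
    · rintro (rfl | ⟨i, hi, rfl⟩)
      · exact ⟨n, Nat.lt_succ_self n, rfl⟩
      · exact ⟨i, Nat.lt_succ_of_lt hi, rfl⟩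
    · rintro ⟨i, hi, rfl⟩
      rcases Nat.lt_succ_iff_lt_or_eq.1 hi with h | rfl
      · exact Or.inr ⟨i, h, rfl⟩
      · left; rfl

theorem strat_wins {N : ℕ} (h0 : Force N ∅ ∅) : IsWinningStrategy (strat N) := by
  intro b hb
  have hmv : ∀ k, mv (N - k) (posR N (history b k).reverse).1 (posR N (history b k).reverse).2
      = makerMove (strat N) b k := by
    intro k; simp [makerMove, strat, history_length]
  have key : ∀ k, MakerLegalUpTo (strat N) b k ∧
        Force (N - k) (posR N (history b k).reverse).1 (posR N (history b k).reverse).2 ∨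
      ∃ n, MakerLegalUpTo (strat N) b n ∧ MakerOwnsCopyAt (strat N) b n := by
    intro k
    induction k with
    | zero =>
      left
      refine ⟨?_, by simpa [history, posR] using h0⟩
      intro k hk
      obtain rfl : k = 0 := by omega
      exact ⟨fun i hi => by omega, fun i hi => by omega⟩
    | succ k ih =>
      rcases ih with ⟨hleg, hf⟩ | h
      swap
      · exact Or.inr h
      have hs := mv_spec hf
      rw [hmv] at hs
      obtain ⟨h1, h2, h3⟩ := hs
      rcases h3 with ⟨P, hP, hPs⟩ | h3
      · right
        refine ⟨k, hleg, P, hP, ?_⟩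
        intro c hc
        have := hPs hc
        rw [Finset.mem_insert, posR_fst] at this
        rcases this with rfl | ⟨i, hi, rfl⟩
        · exact ⟨k, le_rfl, rfl⟩
        · exact ⟨i, hi.le, rfl⟩
      · have hbM : b k ∉ insert (makerMove (strat N) b k) (posR N (history b k).reverse).1 := by
          rw [Finset.mem_insert, posR_fst]
          rintro (h | ⟨i, hi, h⟩)
          · exact (hb k).2 k le_rfl h
          · exact (hb k).2 i hi.le h.symm
        have hbB : b k ∉ (posR N (history b k).reverse).2 := by
          rw [posR_snd]
          rintro ⟨i, hi, h⟩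
          exact (hb k).1 i hi h.symm
        have hf' := h3 (b k) hbM hbB
        have hpos : posR N (history b (k + 1)).reverse =
            (insert (makerMove (strat N) b k) (posR N (history b k).reverse).1,
              insert (b k) (posR N (history b k).reverse).2) := by
          rw [history_succ_reverse, posR, List.length_reverse, history_length, hmv]
        have hf'' : Force (N - (k + 1)) (posR N (history b (k + 1)).reverse).1
            (posR N (history b (k + 1)).reverse).2 := by
          rw [hpos]
          have : N - k - 1 = N - (k + 1) := by omega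
          rw [← this]
          exact hf'
        by_cases hN : N - (k + 1) = 0
        · rw [hN] at hf''; exact hf''.elim
        left
        refine ⟨?_, hf''⟩
        intro j hj
        rcases Nat.lt_succ_iff_lt_or_eq.1 (Nat.lt_succ_of_le hj) with h | rfl
        · exact hleg j (by omega)
        · have hs := mv_spec hf''
          rw [hmv] at hs
          constructor
          · intro i hi h
            exact hs.1 ((posR_fst N b (k + 1) _).2 ⟨i, hi, h.symm⟩)
          · intro i hi h
            exact hs.2.1 ((posR_snd N b (k + 1) _).2 ⟨i, hi, h.symm⟩)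
  rcases key N with ⟨_, h⟩ | h
  · rw [Nat.sub_self] at h; exact h.elim
  · exact h

theorem makerWins_of_force {N : ℕ} (h : Force N ∅ ∅) : MakerWins := ⟨strat N, strat_wins h⟩

end Vale.Agent.P062
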