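import Mathlib.Data.Finset.Image
import Mathlib.Data.Finset.Insert
import Mathlib.Data.Int.Basic
import Mathlib.Data.List.Range

namespace Vale.Agent.P062

abbrev Cell := ℤ × ℤ

def snaky : Finset Cell := {(0, 0), (1, 0), (2, 0), (3, 0), (3, 1), (4, 1)}

def IsAllowedCopy (P : Finset Cell) : Prop :=
  ∃ (t : Cell) (e f : ℤ), (e = 1 ∨ e = -1) ∧ (f = 1 ∨ f = -1) ∧
    (P = snaky.image (fun c => (t.1 + e * c.1, t.2 + f * c.2)) ∨
     P = snaky.image (fun c => (t.1 + e * c.2, t.2 + f * c.1)))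

def history (b : ℕ → Cell) (n : ℕ) : List Cell := (List.range n).map b

def makerMove (σ : List Cell → Cell) (b : ℕ → Cell) (n : ℕ) : Cell := σ (history b n)

def BreakerLegal (σ : List Cell → Cell) (b : ℕ → Cell) : Prop :=
  ∀ n, (∀ i < n, b n ≠ b i) ∧ (∀ i ≤ n, b n ≠ makerMove σ b i)

def MakerLegalUpTo (σ : List Cell → Cell) (b : ℕ → Cell) (n : ℕ) : Prop :=
  ∀ k ≤ n, (∀ i < k, makerMove σ b k ≠ makerMove σ b i) ∧ (∀ i < k, makerMove σ b k ≠ b i)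

def MakerOwnsCopyAt (σ : List Cell → Cell) (b : ℕ → Cell) (n : ℕ) : Prop :=
  ∃ P, IsAllowedCopy P ∧ ∀ c ∈ P, ∃ i ≤ n, makerMove σ b i = c

def IsWinningStrategy (σ : List Cell → Cell) : Prop :=
  ∀ b : ℕ → Cell, BreakerLegal σ b → ∃ n, MakerLegalUpTo σ b n ∧ MakerOwnsCopyAt σ b n

def MakerWins : Prop := ∃ σ : List Cell → Cell, IsWinningStrategy σ

end Vale.Agent.P062
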