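import Mathlib.Data.Matrix.Mul
import Mathlib.Data.Fintype.Perm
import Mathlib.Data.List.OfFn
import Mathlib.Data.Fin.VecNotation

namespace Vale.Agent.P062.Play

def S : Set (Fin 2 → ℤ) := {![0, 0], ![1, 0], ![2, 0], ![3, 0], ![3, 1], ![4, 1]}

def IsSignedPermutationMatrix (R : Matrix (Fin 2) (Fin 2) ℤ) : Prop :=
  ∃ (π : Equiv.Perm (Fin 2)) (ε : Fin 2 → ℤ), (∀ i, ε i = 1 ∨ ε i = -1) ∧
    ∀ i j, R i j = if π i = j then ε i else 0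

def IsAllowedCopy (P : Set (Fin 2 → ℤ)) : Prop :=
  ∃ (t : Fin 2 → ℤ) (R : Matrix (Fin 2) (Fin 2) ℤ), IsSignedPermutationMatrix R ∧
    P = {c | ∃ s ∈ S, c = t + R.mulVec s}

def past (p : ℕ → Fin 2 → ℤ) (m : ℕ) : List (Fin 2 → ℤ) := List.ofFn fun i : Fin m => p i

def FollowsStrategy (σ : List (Fin 2 → ℤ) → Fin 2 → ℤ) (p : ℕ → Fin 2 → ℤ) : Prop :=
  ∀ k, p (2 * k) = σ (past p (2 * k))

def BreakerAlwaysLegal (p : ℕ → Fin 2 → ℤ) : Prop :=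
  ∀ k, ∀ j < 2 * k + 1, p (2 * k + 1) ≠ p j

def MakerHasWonLegally (p : ℕ → Fin 2 → ℤ) (n : ℕ) : Prop :=
  (∀ k ≤ n, ∀ j < 2 * k, p (2 * k) ≠ p j) ∧
    ∃ P, IsAllowedCopy P ∧ ∀ c ∈ P, ∃ k ≤ n, p (2 * k) = c

end Vale.Agent.P062.Play
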