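import Vale.Agent.P062.Check
import Mathlib.Tactic

namespace Vale.Agent.P062

def flipIdx (a i : ℕ) : ℕ := (a - i % 64) + 64 * (i / 64)

def swapIdx (i : ℕ) : ℕ := i / 64 + 64 * (i % 64)

def bit (n i : ℕ) : Bool := Nat.beq (Nat.land (Nat.shiftRight n i) 1) 1

theorem bit_eq (n i : ℕ) : bit n i = n.testBit i := by
  have h1 : Nat.land (Nat.shiftRight n i) 1 = (n >>> i) % 2 := Nat.and_one_is_mod _
  rw [bit, h1, Nat.testBit, Nat.one_and_eq_mod_two]
  rcases Nat.mod_two_eq_zero_or_one (n >>> i) with h | h <;> rw [h] <;> rfl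

noncomputable def allBelow (p : ℕ → Bool) : ℕ → Bool :=
  Nat.rec true (fun i ih => p i && ih)

theorem allBelow_spec {p : ℕ → Bool} {k : ℕ} (h : allBelow p k = true) :
    ∀ i < k, p i = true := by
  induction k with
  | zero => intro i hi; exact absurd hi (Nat.not_lt_zero _)
  | succ k ih =>
    have h' : (p k && allBelow p k) = true := h
    rw [Bool.and_eq_true] at h'
    intro i hi
    rcases Nat.lt_succ_iff_lt_or_eq.1 hi with hi | rfl
    · exact ih h'.2 i hi
    · exact h'.1

def flipIdx' (a i : ℕ) : ℕ := Nat.add (Nat.sub a (Nat.land i 63)) (Nat.mul 64 (Nat.shiftRight i 6))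

def swapIdx' (i : ℕ) : ℕ := Nat.add (Nat.shiftRight i 6) (Nat.mul 64 (Nat.land i 63))

theorem flipIdx'_eq (a i : ℕ) : flipIdx' a i = flipIdx a i := by
  have h1 : Nat.land i 63 = i % 64 := Nat.and_two_pow_sub_one_eq_mod i 6
  have h2 : Nat.shiftRight i 6 = i / 64 := Nat.shiftRight_eq_div_pow i 6
  rw [flipIdx', flipIdx, h1, h2]
  rfl

theorem swapIdx'_eq (i : ℕ) : swapIdx' i = swapIdx i := by
  have h1 : Nat.land i 63 = i % 64 := Nat.and_two_pow_sub_one_eq_mod i 6
  have h2 : Nat.shiftRight i 6 = i / 64 := Nat.shiftRight_eq_div_pow i 6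
  rw [swapIdx', swapIdx, h1, h2]
  rfl

noncomputable def flipHalf (a n n' : ℕ) : Bool :=
  allBelow (fun i => bif bit n i then (Nat.ble (Nat.land i 63) a && bit n' (flipIdx' a i)) else true)
    1536

noncomputable def swapHalf (n n' : ℕ) : Bool :=
  allBelow (fun i => bif bit n i then bit n' (swapIdx' i) else true) 1536

theorem flipHalf_spec {a n n' : ℕ} (h : flipHalf a n n' = true) :
    ∀ i < 1536, n.testBit i = true → i % 64 ≤ a ∧ n'.testBit (flipIdx a i) = true := by
  intro i hi hb
  have := allBelow_spec h i hi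
  rw [bit_eq, hb, cond_true, Bool.and_eq_true, bit_eq, flipIdx'_eq] at this
  have h1 : Nat.land i 63 = i % 64 := Nat.and_two_pow_sub_one_eq_mod i 6
  rw [h1] at this
  exact ⟨Nat.le_of_ble_eq_true this.1, this.2⟩

theorem swapHalf_spec {n n' : ℕ} (h : swapHalf n n' = true) :
    ∀ i < 1536, n.testBit i = true → n'.testBit (swapIdx i) = true := by
  intro i hi hb
  have := allBelow_spec h i hi
  rwa [bit_eq, hb, cond_true, bit_eq, swapIdx'_eq] at this

def Small (n : ℕ) : Prop := Nat.blt n (Nat.shiftLeft 1 1536) = true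

instance (n : ℕ) : Decidable (Small n) := by unfold Small; infer_instance

theorem Small.bit {n i : ℕ} (h : Small n) (hi : n.testBit i = true) : i < 1536 := by
  by_contra hcon
  push Not at hcon
  have h5 : n < Nat.shiftLeft 1 1536 := Nat.le_of_ble_eq_true h
  rw [show Nat.shiftLeft 1 1536 = 2 ^ 1536 from Nat.one_shiftLeft 1536] at h5
  have h4 : n < 2 ^ i := lt_of_lt_of_le h5 (Nat.pow_le_pow_right (by norm_num) hcon)
  rw [Nat.testBit_lt_two_pow h4] at hi
  exact absurd hi (by simp)

theorem flip_bitCell {a i : ℕ} (ha : a < 64) (hi : i % 64 ≤ a) :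
    bitCell (flipIdx a i) = flipX a (bitCell i) := by
  have h1 : (flipIdx a i) % 64 = a - i % 64 := by unfold flipIdx; omega
  have h2 : (flipIdx a i) / 64 = i / 64 := by unfold flipIdx; omega
  simp only [bitCell, flipX, h1, h2, Equiv.coe_fn_mk]
  rw [Nat.cast_sub hi]

theorem swap_bitCell {i : ℕ} (hi : i < 1536) :
    bitCell (swapIdx i) = swapXY (bitCell i) := by
  have h1 : (swapIdx i) % 64 = i / 64 := by unfold swapIdx; omega
  have h2 : (swapIdx i) / 64 = i % 64 := by unfold swapIdx; omega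
  simp only [bitCell, swapXY, h1, h2, Equiv.coe_fn_mk]

theorem flipX_flipX (a : ℤ) (c : Cell) : flipX a (flipX a c) = c := by
  simp [flipX]

theorem swap_swap (c : Cell) : swapXY (swapXY c) = c := by
  simp [swapXY]

theorem cells_flip {a n n' : ℕ} (ha : a < 64) (hn : Small n) (hn' : Small n')
    (h1 : flipHalf a n n' = true) (h2 : flipHalf a n' n = true) :
    cells n' = (cells n).image (flipX a) := by
  ext c
  rw [Finset.mem_image]
  constructor
  · intro hc
    obtain ⟨i, hi, rfl⟩ := mem_cells.1 hc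
    obtain ⟨h3, h4⟩ := flipHalf_spec h2 i (hn'.bit hi) hi
    refine ⟨bitCell (flipIdx a i), bitCell_mem.2 h4, ?_⟩
    rw [flip_bitCell ha h3, flipX_flipX]
  · rintro ⟨d, hd, rfl⟩
    obtain ⟨i, hi, rfl⟩ := mem_cells.1 hd
    obtain ⟨h3, h4⟩ := flipHalf_spec h1 i (hn.bit hi) hi
    rw [← flip_bitCell ha h3]
    exact bitCell_mem.2 h4

theorem cells_swap {n n' : ℕ} (hn : Small n) (hn' : Small n')
    (h1 : swapHalf n n' = true) (h2 : swapHalf n' n = true) :
    cells n' = (cells n).image swapXY := by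
  ext c
  rw [Finset.mem_image]
  constructor
  · intro hc
    obtain ⟨i, hi, rfl⟩ := mem_cells.1 hc
    refine ⟨bitCell (swapIdx i), bitCell_mem.2 (swapHalf_spec h2 i (hn'.bit hi) hi), ?_⟩
    rw [swap_bitCell (hn'.bit hi), swap_swap]
  · rintro ⟨d, hd, rfl⟩
    obtain ⟨i, hi, rfl⟩ := mem_cells.1 hd
    rw [← swap_bitCell (hn.bit hi)]
    exact bitCell_mem.2 (swapHalf_spec h1 i (hn.bit hi) hi)

theorem Good.flip {a c n c' n' : ℕ} (h : Good c n) (h0 : a < 64) (h1 : Small c) (h2 : Small c')
    (h3 : Small n) (h4 : Small n') (h5 : flipHalf a c c' = true) (h6 : flipHalf a c' c = true)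
    (h7 : flipHalf a n n' = true) (h8 : flipHalf a n' n = true) (h9 : fitsOk (Nat.lor c' n') = true) :
    Good c' n' := by
  refine ⟨fits_of_sub h9, ?_⟩
  rw [cells_flip h0 h1 h2 h5 h6, cells_flip h0 h3 h4 h7 h8]
  exact h.2.image (sym_flipX _)

theorem Good.swap {c n c' n' : ℕ} (h : Good c n) (h1 : Small c) (h2 : Small c')
    (h3 : Small n) (h4 : Small n') (h5 : swapHalf c c' = true) (h6 : swapHalf c' c = true)
    (h7 : swapHalf n n' = true) (h8 : swapHalf n' n = true) (h9 : fitsOk (Nat.lor c' n') = true) :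
    Good c' n' := by
  refine ⟨fits_of_sub h9, ?_⟩
  rw [cells_swap h1 h2 h5 h6, cells_swap h3 h4 h7 h8]
  exact h.2.image sym_swap

def dummyE : Tree := .leaf 295147905179352825871 147573952589676412928

theorem dummyE_good : dummyE.All Good := by
  show Good 295147905179352825871 147573952589676412928
  refine ⟨fits_of_sub (by decide +kernel), ?_⟩
  obtain ⟨hm, hC⟩ := move_facts (c := 295147905179352825871) (n := 147573952589676412928) (m := 67)
    (by decide +kernel) (by decide +kernel)
  refine Win.copy hm hC (isAllowedCopy_pat 0) ?_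
  rw [← cells_insert]
  exact sub_subset (by decide +kernel)

end Vale.Agent.P062
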