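import Vale.Agent.P062.Force
import Mathlib.Tactic

namespace Vale.Agent.P062

def Win (C N : Finset Cell) : Prop :=
  ∃ n, ∀ B : Finset Cell, Disjoint C B → Disjoint N B → Force n C B

theorem Win.copy {C N P : Finset Cell} {m : Cell} (hm : m ∈ N) (hC : m ∉ C)
    (hP : IsAllowedCopy P) (hs : P ⊆ insert m C) : Win C N :=
  ⟨1, fun B _ h2 => ⟨m, hC, Finset.disjoint_left.1 h2 hm, Or.inl ⟨P, hP, hs⟩⟩⟩

theorem exists_bound {α : Type*} (l : List α) (p : α → ℕ → Prop)
    (hp : ∀ a n m, n ≤ m → p a n → p a m) (h : ∀ a ∈ l, ∃ n, p a n) :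
    ∃ n, ∀ a ∈ l, p a n := by
  induction l with
  | nil => exact ⟨0, by simp⟩
  | cons a l ih =>
    obtain ⟨n, hn⟩ := ih fun b hb => h b (List.mem_cons_of_mem _ hb)
    obtain ⟨m, hm⟩ := h a List.mem_cons_self
    refine ⟨max n m, fun b hb => ?_⟩
    rcases List.mem_cons.1 hb with rfl | hb
    · exact hp _ _ _ (le_max_right _ _) hm
    · exact hp _ _ _ (le_max_left _ _) (hn b hb)

theorem Win.step {C N : Finset Cell} {m : Cell} (hm : m ∈ N) (hC : m ∉ C)
    (l : List (Finset Cell × Finset Cell))
    (hwin : ∀ k ∈ l, Win k.1 k.2)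
    (h1 : ∀ k ∈ l, k.1 ⊆ insert m C)
    (h2 : ∀ k ∈ l, k.2 ⊆ N ∪ C)
    (h3 : ∀ b, (∀ k ∈ l, b ∈ k.2) → b ∈ insert m C) : Win C N := by
  obtain ⟨n, hn⟩ := exists_bound l
    (fun k n => ∀ B : Finset Cell, Disjoint k.1 B → Disjoint k.2 B → Force n k.1 B)
    (fun k n m hnm h B h1 h2 => (h B h1 h2).le hnm) hwin
  refine ⟨n + 1, fun B hCB hNB => ⟨m, hC, Finset.disjoint_left.1 hNB hm, Or.inr ?_⟩⟩
  intro b hb hbB
  have : ∃ k ∈ l, b ∉ k.2 := by
    by_contra hcon
    push Not at hcon
    exact hb (h3 b hcon)
  obtain ⟨k, hk, hbk⟩ := this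
  refine (hn k hk (insert b B) ?_ ?_).mono (h1 k hk) le_rfl
  · rw [Finset.disjoint_left]
    intro x hx hxB
    have hx' := h1 k hk hx
    rcases Finset.mem_insert.1 hxB with rfl | hxB
    · exact hb hx'
    · rcases Finset.mem_insert.1 hx' with rfl | hx'
      · exact Finset.disjoint_left.1 hNB hm hxB
      · exact Finset.disjoint_left.1 hCB hx' hxB
  · rw [Finset.disjoint_left]
    intro x hx hxB
    rcases Finset.mem_insert.1 hxB with rfl | hxB
    · exact hbk hx
    · rcases Finset.mem_union.1 (h2 k hk hx) with hx' | hx'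
      · exact Finset.disjoint_left.1 hNB hx' hxB
      · exact Finset.disjoint_left.1 hCB hx' hxB

theorem Win.force {N : Finset Cell} (h : Win ∅ N) : ∃ n, Force n ∅ ∅ := by
  obtain ⟨n, hn⟩ := h
  exact ⟨n, hn ∅ (by simp) (by simp)⟩

structure Sym (g : Cell ≃ Cell) : Prop where
  fwd : ∀ P, IsAllowedCopy P → IsAllowedCopy (P.image g)

theorem Force.image {g : Cell ≃ Cell} (hg : Sym g) {n : ℕ} :
    ∀ {M B : Finset Cell}, Force n M B → Force n (M.image g) (B.image g) := by
  induction n with
  | zero => intro M B h; exact h.elim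
  | succ n ih =>
    intro M B h
    obtain ⟨c, hcM, hcB, h⟩ := h
    refine ⟨g c, ?_, ?_, ?_⟩
    · simpa using hcM
    · simpa using hcB
    · rcases h with ⟨P, hP, hPs⟩ | h
      · left
        refine ⟨P.image g, hg.fwd P hP, ?_⟩
        rw [← Finset.image_insert]
        exact Finset.image_subset_image hPs
      · right
        intro b hb hbB
        rw [← Finset.image_insert] at hb ⊢
        have h1 : g.symm b ∉ insert c M := by
          intro hh
          apply hb
          rw [Finset.mem_image]
          exact ⟨g.symm b, hh, g.apply_symm_apply b⟩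
        have h2 : g.symm b ∉ B := by
          intro hh
          apply hbB
          rw [Finset.mem_image]
          exact ⟨g.symm b, hh, g.apply_symm_apply b⟩
        have := ih (h _ h1 h2)
        rwa [Finset.image_insert (f := g) (g.symm b) B, g.apply_symm_apply] at this

theorem Win.image {g : Cell ≃ Cell} (hg : Sym g) {C N : Finset Cell} (h : Win C N) :
    Win (C.image g) (N.image g) := by
  obtain ⟨n, hn⟩ := h
  refine ⟨n, fun B h1 h2 => ?_⟩
  have hB : B = (B.image g.symm).image g := by
    rw [Finset.image_image]; simp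
  rw [hB] at h1 h2 ⊢
  rw [Finset.disjoint_image g.injective] at h1 h2
  exact (hn _ h1 h2).image hg

def trans (t : Cell) : Cell ≃ Cell where
  toFun c := (t.1 + c.1, t.2 + c.2)
  invFun c := (c.1 - t.1, c.2 - t.2)
  left_inv c := by ext <;> simp
  right_inv c := by ext <;> simp

theorem sym_trans (t : Cell) : Sym (trans t) where
  fwd := by
    rintro P ⟨u, e, f, he, hf, h⟩
    refine ⟨(t.1 + u.1, t.2 + u.2), e, f, he, hf, ?_⟩
    rcases h with rfl | rfl
    · left
      rw [Finset.image_image]
      apply Finset.image_congr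
      intro c _
      ext <;> simp [trans] <;> ring
    · right
      rw [Finset.image_image]
      apply Finset.image_congr
      intro c _
      ext <;> simp [trans] <;> ring

def swapXY : Cell ≃ Cell where
  toFun c := (c.2, c.1)
  invFun c := (c.2, c.1)
  left_inv c := by simp
  right_inv c := by simp

theorem sym_swap : Sym swapXY where
  fwd := by
    rintro P ⟨u, e, f, he, hf, h⟩
    refine ⟨(u.2, u.1), f, e, hf, he, ?_⟩
    rcases h with rfl | rfl
    · right
      rw [Finset.image_image]
      apply Finset.image_congr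
      intro c _
      ext <;> simp [swapXY]
    · left
      rw [Finset.image_image]
      apply Finset.image_congr
      intro c _
      ext <;> simp [swapXY]

def flipX (a : ℤ) : Cell ≃ Cell where
  toFun c := (a - c.1, c.2)
  invFun c := (a - c.1, c.2)
  left_inv c := by simp
  right_inv c := by simp

theorem sym_flipX (a : ℤ) : Sym (flipX a) where
  fwd := by
    rintro P ⟨u, e, f, he, hf, h⟩
    refine ⟨(a - u.1, u.2), -e, f, by rcases he with rfl | rfl <;> simp, hf, ?_⟩
    rcases h with rfl | rfl
    · left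
      rw [Finset.image_image]
      apply Finset.image_congr
      intro c _
      ext <;> simp [flipX] <;> ring
    · right
      rw [Finset.image_image]
      apply Finset.image_congr
      intro c _
      ext <;> simp [flipX] <;> ring

end Vale.Agent.P062
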